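import Crest.Agent.R163.Q3.D.P7a.S1
import Crest.Agent.R163.Q3.D.P7a.H

set_option autoImplicit false
set_option maxRecDepth 100000
set_option linter.all false
set_option Elab.async false

namespace Crest.Agent.R163.P7a

theorem p1_19_0 : Ok2 par f19 Box3.unit (selB2 1 (selB2 0 C1 77371252455336267181195263) 8796093022207) :=
  Ok2.run hw hf19 ⟨270,19,19,13,13⟩ 58
    (.chk false 0)
    (by decide +kernel)

theorem p1_19_1 : Ok2 par f19 Box3.unit (selB2 0 (selB2 0 C1 77371252455336267181195263) 8796093022207) :=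
  Ok2.run hw hf19 ⟨270,19,19,13,13⟩ 58
    (.chk false 0)
    (by decide +kernel)

theorem p1_19_2 : Ok2 par f19 Box3.unit (selB2 1 (selB2 1 C1 77371252455336267181195263) 8796093022207) :=
  Ok2.run hw hf19 ⟨270,19,19,13,13⟩ 58
    (.chk false 0)
    (by decide +kernel)

theorem p1_19_3 : Ok2 par f19 Box3.unit (selB2 0 (selB2 1 C1 77371252455336267181195263) 8796093022207) :=
  Ok2.run hw hf19 ⟨270,19,19,13,13⟩ 58
    (.chk false 0)
    (by decide +kernel)


end Crest.Agent.R163.P7a
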